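import Vale.Agent.Lib.P295.Lift

/-!
# Admissible pairs: plane automorphisms over `ℂ[x]` with a triangular lift, that preserve `S`

`R = ℂ[x,T,t]` (variables 0,1,2).  The evaluation `ev : R → S` sends the variables to
`x`, `T`, `t` in `S`.
-/

namespace Vale.Agent.Lib.P295
open MvPolynomial

noncomputable section

/-- The ring `ℂ[x,T,t]`, variables numbered 0,1,2. -/
abbrev R := MvPolynomial (Fin 3) ℂ

/-- Evaluation `ℂ[x,T,t] → S`. -/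
def ev : R →ₐ[ℂ] S := aeval ![(X 0 : S), TS, tS]

@[simp] lemma ev_X0 : ev (X 0) = X 0 := by simp [ev]
@[simp] lemma ev_X1 : ev (X 1) = TS := by simp [ev]
@[simp] lemma ev_X2 : ev (X 2) = tS := by simp [ev]

/-- Admissible pair. -/
def Adm (Φ : R ≃ₐ[ℂ] R) (Λ : R) : Prop :=
  Φ (X 0) = X 0 ∧ (X 0 : R) ∣ Φ (X 1) - X 1 ∧ (X 0 : R) ∣ Λ ∧
  ∃ c : R, (X 0 : R) ^ 3 ∣ Φ (X 2) - (1 + X 0 * c) * X 2 ∧
    (X 0 : R) ^ 3 ∣ (Φ (X 1)) ^ 2 + Λ * Φ (X 2) - (1 + X 0 * c) * (X 1) ^ 2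

lemma adm_lift {Φ : R ≃ₐ[ℂ] R} {Λ : R} (h : Adm Φ Λ) :
    ∃ φ : S →ₐ[ℂ] S, φ (X 0) = X 0 ∧ φ (X 1) = X 1 + ev Λ ∧ ∀ g, φ (ev g) = ev (Φ g) := by
  obtain ⟨h0, ⟨r3, hr3⟩, ⟨r4, hr4⟩, c, ⟨r1, hr1⟩, ⟨r2, hr2⟩⟩ := h
  have e3 := congrArg ev hr3
  have e4 := congrArg ev hr4
  have e1 := congrArg ev hr1
  have e2 := congrArg ev hr2
  simp only [map_sub, map_add, map_mul, map_pow, map_one, ev_X0, ev_X1, ev_X2] at e3 e4 e1 e2
  set a := ev (Φ (X 1)) with ha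
  set b := ev (Φ (X 2)) with hb
  set l := ev Λ with hl
  set c' := ev c
  set s1 := ev r1
  set s2 := ev r2
  set s3 := ev r3
  set s4 := ev r4
  have hrel := relS
  obtain ⟨φ, p0, p1, p2, p3⟩ := lift_exists (X 1 + l) a b
      ((1 + X 0 * c') * qS + X 0 * (s2 + X 1 * s1))
      (by linear_combination (1 + X 0 * c') * hrel - e2 - X 1 * e1)
      (⟨X 2 + s3 - X 1 * c' * qS - X 1 * (s2 + X 1 * s1)
          - s4 * ((1 + X 0 * c') * qS + X 0 * (s2 + X 1 * s1)), by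
        rw [e4]
        have : a = TS + X 0 * s3 := by linear_combination e3
        rw [this]
        unfold TS
        ring⟩)
      (⟨s4, by rw [e4]; ring⟩)
  refine ⟨φ, p0, p1, ?_⟩
  have : φ.comp ev = ev.comp Φ.toAlgHom := by
    apply MvPolynomial.algHom_ext
    intro i
    fin_cases i
    · simp [p0, h0]
    · simp [p2, ← ha]
    · simp [p3, ← hb]
  intro g
  have := congrArg (fun F : R →ₐ[ℂ] S => F g) this
  simpa using this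

lemma adm_inv {Φ : R ≃ₐ[ℂ] R} {Λ : R} (h : Adm Φ Λ) : Adm Φ.symm (- Φ.symm Λ) := by
  obtain ⟨h0, ⟨r3, hr3⟩, ⟨r4, hr4⟩, c, ⟨r1, hr1⟩, ⟨r2, hr2⟩⟩ := h
  have hΨ0 : Φ.symm (X 0) = X 0 := by
    rw [AlgEquiv.symm_apply_eq, h0]
  have e3 := congrArg Φ.symm hr3
  have e4 := congrArg Φ.symm hr4
  have e1 := congrArg Φ.symm hr1
  have e2 := congrArg Φ.symm hr2
  simp only [map_sub, map_add, map_mul, map_pow, map_one, AlgEquiv.symm_apply_apply, hΨ0]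
    at e3 e4 e1 e2
  set A := Φ.symm (X 1)
  set B := Φ.symm (X 2)
  set l := Φ.symm Λ
  set c' := Φ.symm c
  set s1 := Φ.symm r1
  set s2 := Φ.symm r2
  set s3 := Φ.symm r3
  set s4 := Φ.symm r4
  refine ⟨hΨ0, ⟨-s3, by linear_combination -e3⟩, ⟨-s4, by rw [e4]; ring⟩, -c' + X 0 * c' ^ 2,
    ⟨-(c' ^ 3 * B) - (1 + X 0 * (-c' + X 0 * c' ^ 2)) * s1, ?_⟩,
    ⟨l * (c' ^ 3 * B + (1 + X 0 * (-c' + X 0 * c' ^ 2)) * s1) - c' ^ 3 * A ^ 2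
      - (1 + X 0 * (-c' + X 0 * c' ^ 2)) * s2, ?_⟩⟩
  · linear_combination -(1 + X 0 * (-c' + X 0 * c' ^ 2)) * e1
  · linear_combination -(1 + X 0 * (-c' + X 0 * c' ^ 2)) * e2 + l * (1 + X 0 * (-c' + X 0 * c' ^ 2)) * e1

/-- An admissible pair gives an automorphism of `S` fixing `x`, sending `y` to `y + Λ(x,T,t)`. -/
theorem adm_auto {Φ : R ≃ₐ[ℂ] R} {Λ : R} (h : Adm Φ Λ) :
    ∃ ψ : S ≃ₐ[ℂ] S, ψ (X 0) = X 0 ∧ ψ (X 1) = X 1 + ev Λ := by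
  obtain ⟨φ₁, a0, a1, a2⟩ := adm_lift h
  obtain ⟨φ₂, b0, b1, b2⟩ := adm_lift (adm_inv h)
  have hev : ∀ g, φ₂ (ev (Φ g)) = ev g := by
    intro g; rw [b2]; simp
  have hev' : ∀ g, φ₁ (ev (Φ.symm g)) = ev g := by
    intro g; rw [a2]; simp
  have h1 : φ₁.comp φ₂ = AlgHom.id ℂ S := by
    apply rigid
    · simp [a0, b0]
    · simp only [AlgHom.comp_apply, b1, map_add, map_neg, a1, hev']
      simp
    · have : TS = ev (X 1) := by simp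
      rw [this, AlgHom.comp_apply, b2, hev']
    · have : tS = ev (X 2) := by simp
      rw [this, AlgHom.comp_apply, b2, hev']
  have h2 : φ₂.comp φ₁ = AlgHom.id ℂ S := by
    apply rigid
    · simp [a0, b0]
    · simp only [AlgHom.comp_apply, a1, map_add, b1, map_neg, b2]
      simp
    · have : TS = ev (X 1) := by simp
      rw [this, AlgHom.comp_apply, a2, hev]
    · have : tS = ev (X 2) := by simp
      rw [this, AlgHom.comp_apply, a2, hev]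
  refine ⟨AlgEquiv.ofAlgHom φ₁ φ₂ h1 h2, ?_, ?_⟩
  · simpa using a0
  · simpa using a1

/-- Admissibility depends only on `Λ` modulo `x³`. -/
lemma adm_congr {Φ : R ≃ₐ[ℂ] R} {Λ Λ' : R} (h : Adm Φ Λ) (hh : (X 0 : R) ^ 3 ∣ Λ' - Λ) :
    Adm Φ Λ' := by
  obtain ⟨h0, h3, ⟨r4, hr4⟩, c, h1, h2⟩ := h
  obtain ⟨w, hw⟩ := hh
  refine ⟨h0, h3, ⟨r4 + X 0 ^ 2 * w, by linear_combination hw + hr4⟩, c, h1, ?_⟩
  obtain ⟨r2, hr2⟩ := h2
  exact ⟨r2 + w * Φ (X 2), by linear_combination hr2 + Φ (X 2) * hw⟩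

end

end Vale.Agent.Lib.P295
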