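import Vale.Agent.Lib.P295.Jet

/-!
# The family of coordinates

For `m, L ∈ ℂ[T,t]` and `E ∈ ℂ[x,T,t]` the polynomial
`y + 2 x T m(T,t) - x² t m(0,t)² + x² T L(T,t) + x³ E(x,T,t)` is a coordinate of `ℂ[x,y,z,u]`,
with `T = x z + y (z² + y u)` and `t = x² u - (z² + y u)(T + x z)`.
-/

namespace Vale.Agent.Lib.P295
open MvPolynomial

noncomputable section

lemma euler_mono (i : Fin 3) (u : Fin 3 →₀ ℕ) (a : ℂ) :
    (X i : R) * pderiv i (monomial u a) = C (u i : ℂ) * monomial u a := by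
  rw [pderiv_monomial]
  by_cases h : u i = 0
  · simp [h]
  · have hle : Finsupp.single i 1 ≤ u := by
      rw [Finsupp.single_le_iff]
      exact Nat.one_le_iff_ne_zero.2 h
    have hX : (X i : R) = monomial (Finsupp.single i 1) 1 := rfl
    rw [hX, monomial_mul, add_tsub_cancel_of_le hle, C_mul_monomial]
    congr 1
    ring

lemma euler_solve (g : R) :
    ∃ W : R, X 1 * pderiv 1 W + 4 * W + 2 * X 2 * pderiv 2 W = g := by
  induction g using MvPolynomial.induction_on' with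
  | monomial u a =>
    set den : ℂ := (u 1 : ℂ) + 4 + 2 * (u 2 : ℂ) with hden
    have hne : den ≠ 0 := by
      have : (den.re) = (u 1 : ℝ) + 4 + 2 * (u 2 : ℝ) := by
        simp [hden]
      intro h0
      rw [h0] at this
      have h1 : (0 : ℝ) ≤ (u 1 : ℝ) := Nat.cast_nonneg _
      have h2 : (0 : ℝ) ≤ (u 2 : ℝ) := Nat.cast_nonneg _
      simp at this
      linarith
    refine ⟨monomial u (a / den), ?_⟩
    have e1 := euler_mono 1 u (a / den)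
    have e2 := euler_mono 2 u (a / den)
    have h3 : (monomial u a : R) = C den * monomial u (a / den) := by
      rw [C_mul_monomial]
      congr 1
      field_simp
    rw [h3]
    have h4 : (C den : R) = C (u 1 : ℂ) + 4 + 2 * C (u 2 : ℂ) := by
      rw [hden, map_add, map_add, map_mul]
      simp only [map_ofNat]
    rw [h4]
    linear_combination e1 + 2 * e2
  | add p q hp hq =>
    obtain ⟨W1, h1⟩ := hp
    obtain ⟨W2, h2⟩ := hq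
    refine ⟨W1 + W2, ?_⟩
    simp only [map_add]
    linear_combination h1 + h2

lemma split_T (m : MvPolynomial (Fin 2) ℂ) :
    ∃ m2 : R, aeval ![(X 1 : R), X 2] m = aeval ![(0 : R), X 2] m + X 1 * m2 := by
  induction m using MvPolynomial.induction_on with
  | C a =>
    refine ⟨0, ?_⟩
    simp [algHom_C]
  | add p q hp hq =>
    obtain ⟨r, hr⟩ := hp
    obtain ⟨s, hs⟩ := hq
    refine ⟨r + s, ?_⟩
    simp only [map_add, hr, hs]
    ring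
  | mul_X p i hp =>
    obtain ⟨r, hr⟩ := hp
    have hi : i = 0 ∨ i = 1 := by
      fin_cases i <;> simp
    rcases hi with rfl | rfl
    · refine ⟨aeval ![(X 1 : R), X 2] p, ?_⟩
      rw [map_mul, map_mul, aeval_X, aeval_X]
      simp only [Matrix.cons_val_zero]
      ring
    · refine ⟨r * X 2, ?_⟩
      rw [map_mul, map_mul, aeval_X, aeval_X, hr]
      simp only [Matrix.cons_val_one, Matrix.cons_val_zero]
      ring

lemma key_identity {A : Type*} [CommRing A] (x T t a0 a1 b0 b1 r0 r1 s0 s1 m m0 m2 L E : A)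
    (hm : m = b0 * T - 2 * a0) (hm0 : m = m0 + T * m2)
    (hL : 2 * (2 * a1 - T * b1) + (4 * r0 + t * (b0 ^ 2 * T - 2 * b0 * m + m2 * (m + m0)) + L
      + 4 * t * b0 * m - 2 * s0 * T) = 0) :
    2 * T * (2 * x * (a0 + x * a1) + 2 * x ^ 2 * (r0 + x * r1))
      + t * (2 * x * (a0 + x * a1) + 2 * x ^ 2 * (r0 + x * r1)) ^ 2
      + (2 * x * T * m + x ^ 2 * (-t * m0 ^ 2 + T * L) + x ^ 3 * E)
        * (1 + t * (2 * x * (b0 + x * b1) + 2 * x ^ 2 * (s0 + x * s1)))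
      - (2 * x * (b0 + x * b1) + 2 * x ^ 2 * (s0 + x * s1)) * T ^ 2
    = x ^ 3 * (E + 8*t*a0*r0 + 8*t*a0*a1 - 8*t^2*a0^2*b0 + 4*T*r1 - 8*T*t*b0*r0 - 8*T*t*a1*b0
      - 8*T*t*a0*s0 - 8*T*t*a0*b1 + 16*T*t^2*a0*b0^2 - 2*T^2*s1 + 8*T^2*t*b0*s0 + 8*T^2*t*b0*b1
      - 8*T^2*t^2*b0^3 + 4*x*t*r0^2 + 2*x*t*b0*E + 8*x*t*a1*r0 + 4*x*t*a1^2 + 8*x*t*a0*r1
      - 8*x*t^2*a0^2*s0 - 8*x*t^2*a0^2*b1 - 8*x*T*t*r0*s0 - 8*x*T*t*b1*r0 - 8*x*T*t*a1*s0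
      - 8*x*T*t*a1*b1 - 8*x*T*t*a0*s1 + 16*x*T*t^2*a0*b0*s0 + 16*x*T*t^2*a0*b0*b1 + 4*x*T^2*t*s0^2
      + 8*x*T^2*t*b1*s0 + 4*x*T^2*t*b1^2 + 4*x*T^2*t*b0*s1 - 8*x*T^2*t^2*b0^2*s0
      - 8*x*T^2*t^2*b0^2*b1 + 2*x^2*t*s0*E + 8*x^2*t*r0*r1 + 2*x^2*t*b1*E + 8*x^2*t*a1*r1
      - 8*x^2*t^2*a0^2*s1 - 8*x^2*T*t*r0*s1 - 8*x^2*T*t*a1*s1 + 16*x^2*T*t^2*a0*b0*s1
      + 4*x^2*T^2*t*s0*s1 + 4*x^2*T^2*t*b1*s1 - 8*x^2*T^2*t^2*b0^2*s1 + 2*x^3*t*s1*E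
      + 4*x^3*t*r1^2) := by
  obtain rfl : m0 = m - T * m2 := by linear_combination -hm0
  obtain rfl : L = -(2 * (2 * a1 - T * b1)) - (4 * r0 + t * (b0 ^ 2 * T - 2 * b0 * m
      + m2 * (m + (m - T * m2))) + 4 * t * b0 * m - 2 * s0 * T) := by linear_combination hL
  subst hm
  ring

/-- The main admissibility statement. -/
theorem adm_family (m m0 m2 L E : R) (hm : m = m0 + X 1 * m2) :
    ∃ Φ, Adm Φ (2 * X 0 * X 1 * m + (X 0) ^ 2 * (-X 2 * m0 ^ 2 + X 1 * L) + (X 0) ^ 3 * E) := by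
  obtain ⟨W0, hW0⟩ := euler_solve (-m)
  set b0 : R := - pderiv 1 W0 with hb0
  set a0 : R := 2 * W0 + X 2 * pderiv 2 W0 with ha0
  have hm' : m = b0 * X 1 - 2 * a0 := by
    rw [hb0, ha0]; linear_combination hW0
  set H0 : R := (X 2) ^ 2 * W0 with hH0
  set r0 : R := X 2 * b0 * a0 + Xf H0 a0 with hr0
  set s0 : R := 2 * X 2 * b0 ^ 2 + Xf H0 b0 with hs0
  set B : R := 4 * r0 + X 2 * (b0 ^ 2 * X 1 - 2 * b0 * m + m2 * (m + m0)) + L
      + 4 * X 2 * b0 * m - 2 * s0 * X 1 with hB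
  obtain ⟨W1, hW1⟩ := euler_solve (C (-1 / 2) * B)
  set b1 : R := - pderiv 1 W1 with hb1
  set a1 : R := 2 * W1 + X 2 * pderiv 2 W1 with ha1
  have hL : 2 * (2 * a1 - X 1 * b1) + B = 0 := by
    have h2 : (2 : R) * C (-1 / 2) = -1 := by
      have : (2 : R) = C 2 := (map_ofNat C 2).symm
      rw [this, ← C_mul]
      have : (2 : ℂ) * (-1 / 2) = -1 := by norm_num
      rw [this]; simp
    rw [hb1, ha1]
    linear_combination 2 * hW1 + B * h2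
  set H1 : R := (X 2) ^ 2 * W1 with hH1
  set H : R := H0 + X 0 * H1 with hH
  obtain ⟨Φ, hΦx, hΦ⟩ := exists_jet H
  -- first derivatives of `H`
  have d10 : pderiv 1 (X 0 : R) = 0 := by simp
  have d20 : pderiv 2 (X 0 : R) = 0 := by simp
  have d12 : pderiv 1 (X 2 : R) = 0 := by simp
  have d22 : pderiv 2 (X 2 : R) = 1 := by simp
  have e1 : pderiv 1 H = - (X 2) ^ 2 * (b0 + X 0 * b1) := by
    simp only [hH, hH0, hH1, map_add, pderiv_mul, hb0, hb1, d10, Derivation.leibniz_pow, d12]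
    simp
    ring
  have e2 : pderiv 2 H = X 2 * (a0 + X 0 * a1) := by
    simp only [hH, hH0, hH1, map_add, pderiv_mul, ha0, ha1, d20, Derivation.leibniz_pow, d22]
    simp
    ring
  have hXT : Xf H (X 1) = X 2 * (a0 + X 0 * a1) := by rw [Xf_X1, e2]
  have hXt : Xf H (X 2) = (X 2) ^ 2 * (b0 + X 0 * b1) := by rw [Xf_X2, e1]; ring
  -- linearity of `Xf` in the parameter `x`
  have hxl : ∀ g g' : R, Xf H (g + X 0 * g') =
      Xf H0 g + X 0 * (Xf H0 g' + Xf H1 g + X 0 * Xf H1 g') := by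
    intro g g'
    have l1 : ∀ p : R, Xf H p = Xf H0 p + X 0 * Xf H1 p := by
      intro p
      simp only [Xf, hH, map_add, pderiv_mul, d10, d20]
      ring
    rw [l1, Xf_add_right, Xf_add_right, Xf_mul_right, Xf_mul_right, Xf_X0, Xf_X0]
    ring
  have hXXT : Xf H (Xf H (X 1)) = X 2 * (r0 + X 0 * (X 2 * (b1 * a0 + b0 * a1 + X 0 * b1 * a1)
      + Xf H0 a1 + Xf H1 a0 + X 0 * Xf H1 a1)) := by
    rw [hXT, Xf_mul_right, hXt, hxl, hr0]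
    ring
  have hXXt : Xf H (Xf H (X 2)) = (X 2) ^ 2 * (s0 + X 0 * (2 * X 2 * (2 * b0 * b1 + X 0 * b1 ^ 2)
      + Xf H0 b1 + Xf H1 b0 + X 0 * Xf H1 b1)) := by
    rw [hXt, pow_two, mul_assoc, Xf_mul_right, Xf_mul_right, hXt, hxl, hs0]
    ring
  set r1 : R := X 2 * (b1 * a0 + b0 * a1 + X 0 * b1 * a1) + Xf H0 a1 + Xf H1 a0 + X 0 * Xf H1 a1
    with hr1
  set s1 : R := 2 * X 2 * (2 * b0 * b1 + X 0 * b1 ^ 2) + Xf H0 b1 + Xf H1 b0 + X 0 * Xf H1 b1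
    with hs1
  obtain ⟨ra, hra⟩ := hΦ (X 1)
  obtain ⟨rb, hrb⟩ := hΦ (X 2)
  rw [hXXT, hXT] at hra
  rw [hXXt, hXt] at hrb
  have hA : Φ (X 1) = X 1 + X 2 * (2 * X 0 * (a0 + X 0 * a1) + 2 * (X 0) ^ 2 * (r0 + X 0 * r1))
      + (X 0) ^ 3 * ra := by
    linear_combination hra
  have hBt : Φ (X 2) = X 2 * (1 + X 2 * (2 * X 0 * (b0 + X 0 * b1)
      + 2 * (X 0) ^ 2 * (s0 + X 0 * s1))) + (X 0) ^ 3 * rb := by
    linear_combination hrb
  obtain ⟨d, key⟩ : ∃ d : R, 2 * X 1 * (2 * X 0 * (a0 + X 0 * a1) + 2 * (X 0) ^ 2 * (r0 + X 0 * r1))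
      + X 2 * (2 * X 0 * (a0 + X 0 * a1) + 2 * (X 0) ^ 2 * (r0 + X 0 * r1)) ^ 2
      + (2 * X 0 * X 1 * m + (X 0) ^ 2 * (-X 2 * m0 ^ 2 + X 1 * L) + (X 0) ^ 3 * E)
        * (1 + X 2 * (2 * X 0 * (b0 + X 0 * b1) + 2 * (X 0) ^ 2 * (s0 + X 0 * s1)))
      - (2 * X 0 * (b0 + X 0 * b1) + 2 * (X 0) ^ 2 * (s0 + X 0 * s1)) * (X 1) ^ 2
      = (X 0) ^ 3 * d :=
    ⟨_, key_identity (X 0 : R) (X 1) (X 2) a0 a1 b0 b1 r0 r1 s0 s1 m m0 m2 L E hm' hm hL⟩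
  refine ⟨Φ, hΦx, ?_, ⟨2 * X 1 * m + X 0 * (-X 2 * m0 ^ 2 + X 1 * L) + (X 0) ^ 2 * E, by ring⟩,
    X 2 * (2 * (b0 + X 0 * b1) + 2 * X 0 * (s0 + X 0 * s1)), ⟨rb, ?_⟩, ?_⟩
  · refine ⟨X 2 * (2 * (a0 + X 0 * a1) + 2 * X 0 * (r0 + X 0 * r1)) + (X 0) ^ 2 * ra, ?_⟩
    rw [hA]; ring
  · rw [hBt]; ring
  · rw [hA, hBt]
    refine ⟨X 2 * d + 2 * (X 1 + X 2 * (2 * X 0 * (a0 + X 0 * a1) + 2 * (X 0) ^ 2 * (r0 + X 0 * r1)))
      * ra + (X 0) ^ 3 * ra ^ 2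
      + (2 * X 0 * X 1 * m + (X 0) ^ 2 * (-X 2 * m0 ^ 2 + X 1 * L) + (X 0) ^ 3 * E) * rb, ?_⟩
    linear_combination (X 2 : R) * key

/-- Evaluating the embedded two-variable polynomials. -/
lemma ev_aeval (m : MvPolynomial (Fin 2) ℂ) :
    ev (aeval ![(X 1 : R), X 2] m) = aeval ![TS, tS] m := by
  have : ev.comp (aeval ![(X 1 : R), X 2]) = aeval ![TS, tS] := by
    apply MvPolynomial.algHom_ext
    intro i
    have hi : i = 0 ∨ i = 1 := by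
      fin_cases i <;> simp
    rcases hi with rfl | rfl
    · rw [AlgHom.comp_apply, aeval_X, aeval_X]
      simp only [Matrix.cons_val_zero, ev_X1]
    · rw [AlgHom.comp_apply, aeval_X, aeval_X]
      simp only [Matrix.cons_val_one, Matrix.cons_val_zero, ev_X2]
  exact congrArg (fun F : MvPolynomial (Fin 2) ℂ →ₐ[ℂ] S => F m) this

lemma ev_aeval0 (m : MvPolynomial (Fin 2) ℂ) :
    ev (aeval ![(0 : R), X 2] m) = aeval ![(0 : S), tS] m := by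
  have : ev.comp (aeval ![(0 : R), X 2]) = aeval ![(0 : S), tS] := by
    apply MvPolynomial.algHom_ext
    intro i
    have hi : i = 0 ∨ i = 1 := by
      fin_cases i <;> simp
    rcases hi with rfl | rfl
    · rw [AlgHom.comp_apply, aeval_X, aeval_X]
      simp only [Matrix.cons_val_zero, map_zero]
    · rw [AlgHom.comp_apply, aeval_X, aeval_X]
      simp only [Matrix.cons_val_one, Matrix.cons_val_zero, ev_X2]
  exact congrArg (fun F : MvPolynomial (Fin 2) ℂ →ₐ[ℂ] S => F m) this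

/-- The family of coordinates. -/
theorem coordinate_family (m L : MvPolynomial (Fin 2) ℂ) (E : MvPolynomial (Fin 3) ℂ) :
    ∃ ψ : S ≃ₐ[ℂ] S, ψ (X 0) = X 0 ∧
      ψ (X 1) = X 1 + 2 * X 0 * TS * aeval ![TS, tS] m
        - (X 0) ^ 2 * tS * (aeval ![(0 : S), tS] m) ^ 2
        + (X 0) ^ 2 * TS * aeval ![TS, tS] L
        + (X 0) ^ 3 * aeval ![(X 0 : S), TS, tS] E := by
  obtain ⟨m2, hm2⟩ := split_T m
  obtain ⟨Φ, hΦ⟩ := adm_family (aeval ![(X 1 : R), X 2] m) (aeval ![(0 : R), X 2] m) m2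
    (aeval ![(X 1 : R), X 2] L) E hm2
  obtain ⟨ψ, h0, h1⟩ := adm_auto hΦ
  refine ⟨ψ, h0, ?_⟩
  rw [h1]
  simp only [map_add, map_mul, map_pow, map_neg, ev_X0, ev_X1, ev_X2, ev_aeval, ev_aeval0, map_ofNat]
  have : ev E = aeval ![(X 0 : S), TS, tS] E := rfl
  rw [this]
  ring

end

end Vale.Agent.Lib.P295
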