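import Vale.Agent.Lib.P295.Adm

/-!
# Automorphisms of the plane over `ℂ[x]` with a prescribed 2-jet `exp (2 x X_H)` modulo `x³`

For every `H ∈ ℂ[x,T,t]` there is an automorphism of `ℂ[x,T,t]` fixing `x` that agrees modulo `x³`
with the time `2x` flow of the Hamiltonian vector field of `H`.  The proof: shears along powers of
linear forms, a symmetric (Strang) product, and the fact that every polynomial in two variables
is a combination of powers of linear forms.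
-/

namespace Vale.Agent.Lib.P295
open MvPolynomial

noncomputable section

/-- The Hamiltonian derivative `X_H g = H_t g_T - H_T g_t` on `ℂ[x,T,t]`. -/
def Xf (H g : R) : R := pderiv 2 H * pderiv 1 g - pderiv 1 H * pderiv 2 g

lemma Xf_add_right (H g h : R) : Xf H (g + h) = Xf H g + Xf H h := by
  simp only [Xf, map_add]; ring

lemma Xf_mul_right (H g h : R) : Xf H (g * h) = Xf H g * h + g * Xf H h := by
  simp only [Xf, pderiv_mul]; ring

lemma Xf_add_left (A B g : R) : Xf (A + B) g = Xf A g + Xf B g := by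
  simp only [Xf, map_add]; ring

lemma Xf_C_right (H : R) (a : ℂ) : Xf H (C a) = 0 := by
  simp [Xf]

lemma Xf_X0 (H : R) : Xf H (X 0) = 0 := by
  simp [Xf]

lemma Xf_X1 (H : R) : Xf H (X 1) = pderiv 2 H := by
  simp [Xf]

lemma Xf_X2 (H : R) : Xf H (X 2) = - pderiv 1 H := by
  simp [Xf]

/-- `Φ` fixes `x` and agrees with `exp (2 x X_H)` modulo `x³`. -/
def Jet (H : R) (Φ : R ≃ₐ[ℂ] R) : Prop :=
  Φ (X 0) = X 0 ∧
    ∀ g : R, (X 0 : R) ^ 3 ∣ Φ g - g - 2 * X 0 * Xf H g - 2 * (X 0) ^ 2 * Xf H (Xf H g)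

lemma jet_of_gens (H : R) (Φ : R ≃ₐ[ℂ] R) (h0 : Φ (X 0) = X 0)
    (h1 : (X 0 : R) ^ 3 ∣ Φ (X 1) - X 1 - 2 * X 0 * Xf H (X 1) - 2 * (X 0) ^ 2 * Xf H (Xf H (X 1)))
    (h2 : (X 0 : R) ^ 3 ∣ Φ (X 2) - X 2 - 2 * X 0 * Xf H (X 2) - 2 * (X 0) ^ 2 * Xf H (Xf H (X 2))) :
    Jet H Φ := by
  refine ⟨h0, ?_⟩
  have hX : ∀ i : Fin 3, (X 0 : R) ^ 3 ∣
      Φ (X i) - X i - 2 * X 0 * Xf H (X i) - 2 * (X 0) ^ 2 * Xf H (Xf H (X i)) := by
    intro i
    fin_cases i
    · refine ⟨0, ?_⟩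
      simp [h0, Xf]
    · exact h1
    · exact h2
  intro g
  induction g using MvPolynomial.induction_on with
  | C a =>
    have : Φ (C a) = C a := by
      simpa using Φ.commutes a
    have h00 : Xf H 0 = 0 := by simp [Xf]
    simp [this, Xf_C_right, h00]
  | add p q hp hq =>
    obtain ⟨r, hr⟩ := hp
    obtain ⟨s, hs⟩ := hq
    refine ⟨r + s, ?_⟩
    simp only [map_add, Xf_add_right]
    linear_combination hr + hs
  | mul_X p i hp =>
    obtain ⟨r, hr⟩ := hp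
    obtain ⟨s, hs⟩ := hX i
    set g1 := Xf H p with hg1
    set g2 := Xf H g1 with hg2
    set h1' := Xf H (X i) with hh1
    set h2' := Xf H h1' with hh2
    refine ⟨4 * g1 * h2' + 4 * g2 * h1' + 4 * X 0 * g2 * h2'
      + s * (p + 2 * X 0 * g1 + 2 * (X 0) ^ 2 * g2) + r * (X i + 2 * X 0 * h1' + 2 * (X 0) ^ 2 * h2')
      + (X 0) ^ 3 * r * s, ?_⟩
    have e1 : Xf H (p * X i) = g1 * X i + p * h1' := by
      rw [Xf_mul_right]
    have e2 : Xf H (g1 * X i + p * h1') = g2 * X i + 2 * g1 * h1' + p * h2' := by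
      rw [Xf_add_right, Xf_mul_right, Xf_mul_right]; ring
    rw [e1, e2, map_mul]
    have hp' : Φ p = p + 2 * X 0 * g1 + 2 * (X 0) ^ 2 * g2 + (X 0) ^ 3 * r := by
      linear_combination hr
    have hs' : Φ (X i) = X i + 2 * X 0 * h1' + 2 * (X 0) ^ 2 * h2' + (X 0) ^ 3 * s := by
      linear_combination hs
    rw [hp', hs']
    ring

lemma jet_iter (A B g : R) : Xf (A + B + A) (Xf (A + B + A) g) =
    4 * Xf A (Xf A g) + 2 * Xf A (Xf B g) + 2 * Xf B (Xf A g) + Xf B (Xf B g) := by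
  simp only [Xf_add_left, Xf_add_right]; ring

/-- Symmetric product. -/
lemma jet_strang {A B : R} {Φ₁ Φ₂ : R ≃ₐ[ℂ] R} (J₁ : Jet A Φ₁) (J₂ : Jet B Φ₂) :
    Jet (A + B + A) (Φ₁.trans (Φ₂.trans Φ₁)) := by
  obtain ⟨h1x, h1⟩ := J₁
  obtain ⟨h2x, h2⟩ := J₂
  refine ⟨by simp [h1x, h2x], ?_⟩
  intro g
  set a : R → R := Xf A with ha
  set b : R → R := Xf B with hb
  have P1 : ∀ p, ∃ r, Φ₁ p = p + 2 * X 0 * a p + 2 * (X 0) ^ 2 * a (a p) + (X 0) ^ 3 * r := by
    intro p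
    obtain ⟨r, hr⟩ := h1 p
    exact ⟨r, by linear_combination hr⟩
  have P2 : ∀ p, ∃ r, Φ₂ p = p + 2 * X 0 * b p + 2 * (X 0) ^ 2 * b (b p) + (X 0) ^ 3 * r := by
    intro p
    obtain ⟨r, hr⟩ := h2 p
    exact ⟨r, by linear_combination hr⟩
  obtain ⟨r1, e1⟩ := P1 g
  obtain ⟨r2, e2⟩ := P2 g
  obtain ⟨r3, e3⟩ := P2 (a g)
  obtain ⟨r4, e4⟩ := P2 (a (a g))
  obtain ⟨r5, e5⟩ := P1 (b g)
  obtain ⟨r6, e6⟩ := P1 (a g)
  obtain ⟨r7, e7⟩ := P1 (b (b g))
  obtain ⟨r8, e8⟩ := P1 (b (a g))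
  obtain ⟨r9, e9⟩ := P1 (a (a g))
  have E1 : Φ₂ (Φ₁ g) = Φ₂ g + 2 * X 0 * Φ₂ (a g) + 2 * (X 0) ^ 2 * Φ₂ (a (a g))
      + (X 0) ^ 3 * Φ₂ r1 := by
    rw [e1]; simp only [map_add, map_mul, map_pow, map_ofNat, h2x]
  have E2 : Φ₁ (Φ₂ g) = Φ₁ g + 2 * X 0 * Φ₁ (b g) + 2 * (X 0) ^ 2 * Φ₁ (b (b g))
      + (X 0) ^ 3 * Φ₁ r2 := by
    rw [e2]; simp only [map_add, map_mul, map_pow, map_ofNat, h1x]
  have E3 : Φ₁ (Φ₂ (a g)) = Φ₁ (a g) + 2 * X 0 * Φ₁ (b (a g)) + 2 * (X 0) ^ 2 * Φ₁ (b (b (a g)))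
      + (X 0) ^ 3 * Φ₁ r3 := by
    rw [e3]; simp only [map_add, map_mul, map_pow, map_ofNat, h1x]
  have E4 : Φ₁ (Φ₂ (a (a g))) = Φ₁ (a (a g)) + 2 * X 0 * Φ₁ (b (a (a g)))
      + 2 * (X 0) ^ 2 * Φ₁ (b (b (a (a g)))) + (X 0) ^ 3 * Φ₁ r4 := by
    rw [e4]; simp only [map_add, map_mul, map_pow, map_ofNat, h1x]
  have E0 : Φ₁ (Φ₂ (Φ₁ g)) = Φ₁ (Φ₂ g) + 2 * X 0 * Φ₁ (Φ₂ (a g))
      + 2 * (X 0) ^ 2 * Φ₁ (Φ₂ (a (a g))) + (X 0) ^ 3 * Φ₁ (Φ₂ r1) := by
    rw [E1]; simp only [map_add, map_mul, map_pow, map_ofNat, h1x]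
  refine ⟨r1 + 4 * a (a (b g)) + 2 * X 0 * r5 + 4 * a (b (b g)) + 4 * X 0 * a (a (b (b g)))
      + 2 * (X 0) ^ 2 * r7 + Φ₁ r2 + 4 * a (a (a g)) + 2 * X 0 * r6 + 8 * a (b (a g))
      + 8 * X 0 * a (a (b (a g))) + 4 * (X 0) ^ 2 * r8 + 4 * Φ₁ (b (b (a g))) + 2 * X 0 * Φ₁ r3
      + 4 * a (a (a g)) + 4 * X 0 * a (a (a (a g))) + 2 * (X 0) ^ 2 * r9 + 4 * Φ₁ (b (a (a g)))
      + 4 * X 0 * Φ₁ (b (b (a (a g)))) + 2 * (X 0) ^ 2 * Φ₁ r4 + Φ₁ (Φ₂ r1), ?_⟩
  have hit := jet_iter A B g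
  have hone : Xf (A + B + A) g = 2 * a g + b g := by
    simp only [Xf_add_left, ha, hb]; ring
  simp only [AlgEquiv.trans_apply]
  rw [hit, hone, E0, E2, E3, E4, e1, e5, e6, e7, e8, e9]
  simp only [ha, hb]
  ring

/-- Shears along `ℓ = T + β t`. -/
def ellp (β : ℂ) : R := X 1 + C β * X 2

/-- The algebra map of the shear with increment `w`. -/
def shearHom (β : ℂ) (w : R) : R →ₐ[ℂ] R :=
  aeval ![(X 0 : R), X 1 + 2 * X 0 * C β * w, X 2 - 2 * X 0 * w]

lemma shear_ell (β : ℂ) (w : R) : shearHom β w (ellp β) = ellp β := by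
  simp only [shearHom, ellp, map_add, map_mul, aeval_X, algHom_C]
  simp
  ring

lemma shear_X0 (β : ℂ) (w : R) : shearHom β w (X 0) = X 0 := by
  simp [shearHom]

lemma shear_X1 (β : ℂ) (w : R) : shearHom β w (X 1) = X 1 + 2 * X 0 * C β * w := by
  simp [shearHom]

lemma shear_X2 (β : ℂ) (w : R) : shearHom β w (X 2) = X 2 - 2 * X 0 * w := by
  simp [shearHom]

/-- The increment of the shear. -/
def incr (β e : ℂ) (k d : ℕ) : R := C e * (X 0) ^ k * (ellp β) ^ d

lemma shear_incr (β e' : ℂ) (k d : ℕ) (w : R) :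
    shearHom β w (incr β e' k d) = incr β e' k d := by
  simp only [incr, map_mul, map_pow, shear_ell, shear_X0]
  congr 2
  exact (shearHom β w).commutes e'

lemma incr_neg (β e : ℂ) (k d : ℕ) : incr β (-e) k d = - incr β e k d := by
  simp only [incr, map_neg]; ring

lemma shear_comp (β e : ℂ) (k d : ℕ) :
    (shearHom β (incr β (-e) k d)).comp (shearHom β (incr β e k d)) = AlgHom.id ℂ R := by
  apply MvPolynomial.algHom_ext
  intro i
  fin_cases i
  · simp [shear_X0]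
  · simp only [AlgHom.comp_apply, AlgHom.id_apply]
    simp only [Fin.mk_one, Fin.isValue, shear_X1, map_add, map_mul, shear_X0, shear_incr,
      map_ofNat, algHom_C, algebraMap_eq]
    rw [incr_neg]
    ring
  · simp only [AlgHom.comp_apply, AlgHom.id_apply]
    simp only [Fin.reduceFinMk, Fin.isValue, shear_X2, map_sub, map_mul, shear_X0, shear_incr,
      map_ofNat]
    rw [incr_neg]
    ring

/-- The shear as an algebra automorphism. -/
def shearEquiv (β e : ℂ) (k d : ℕ) : R ≃ₐ[ℂ] R :=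
  AlgEquiv.ofAlgHom (shearHom β (incr β e k d)) (shearHom β (incr β (-e) k d))
    (by simpa using shear_comp β (-e) k d)
    (shear_comp β e k d)

lemma pderiv1_ell (β : ℂ) : pderiv 1 (ellp β) = 1 := by
  simp [ellp]

lemma pderiv2_ell (β : ℂ) : pderiv 2 (ellp β) = C β := by
  simp [ellp]

lemma pderiv1_incr (β e : ℂ) (k d : ℕ) :
    pderiv 1 (incr β e k d) = C e * (X 0) ^ k * ((d : R) * (ellp β) ^ (d - 1)) := by
  simp only [incr, pderiv_mul, pderiv_C, Derivation.leibniz_pow, pderiv1_ell]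
  simp

lemma pderiv2_incr (β e : ℂ) (k d : ℕ) :
    pderiv 2 (incr β e k d) = C e * (X 0) ^ k * ((d : R) * (ellp β) ^ (d - 1)) * C β := by
  simp only [incr, pderiv_mul, pderiv_C, Derivation.leibniz_pow, pderiv2_ell]
  simp
  ring

/-- The Hamiltonian `c x^k ℓ^(d+1)` is realized exactly by a shear. -/
lemma jet_shear (β c : ℂ) (k d : ℕ) :
    ∃ Φ, Jet (incr β c k (d + 1)) Φ := by
  set e : ℂ := c * ((d : ℂ) + 1) with he
  have hH1 : pderiv 1 (incr β c k (d + 1)) = incr β e k d := by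
    rw [pderiv1_incr]
    simp only [incr, he, map_mul, map_add, map_natCast, map_one, Nat.add_sub_cancel]
    push_cast
    ring
  have hH2 : pderiv 2 (incr β c k (d + 1)) = C β * incr β e k d := by
    rw [pderiv2_incr]
    simp only [incr, he, map_mul, map_add, map_natCast, map_one, Nat.add_sub_cancel]
    push_cast
    ring
  have hw : Xf (incr β c k (d + 1)) (incr β e k d) = 0 := by
    simp only [Xf, hH1, hH2, pderiv1_incr, pderiv2_incr]
    ring
  refine ⟨shearEquiv β e k d, ?_⟩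
  apply jet_of_gens
  · show shearHom β _ (X 0) = X 0
    simp [shear_X0]
  · refine ⟨0, ?_⟩
    have : (shearEquiv β e k d) (X 1) = X 1 + 2 * X 0 * C β * incr β e k d := shear_X1 _ _
    rw [this, Xf_X1, hH2]
    have hh : Xf (incr β c k (d + 1)) (C β * incr β e k d) = 0 := by
      rw [Xf_mul_right, Xf_C_right, hw]; ring
    rw [hh]; ring
  · refine ⟨0, ?_⟩
    have : (shearEquiv β e k d) (X 2) = X 2 - 2 * X 0 * incr β e k d := shear_X2 _ _
    rw [this, Xf_X2, hH1]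
    have hh : Xf (incr β c k (d + 1)) (- incr β e k d) = 0 := by
      have : - incr β e k d = C (-1) * incr β e k d := by simp
      rw [this, Xf_mul_right, Xf_C_right, hw]; ring
    rw [hh]; ring

lemma jet_xpow (c : ℂ) (k : ℕ) : ∃ Φ, Jet (C c * (X 0) ^ k) Φ := by
  refine ⟨AlgEquiv.refl, ?_⟩
  apply jet_of_gens
  · simp
  · refine ⟨0, ?_⟩
    simp [Xf]
  · refine ⟨0, ?_⟩
    simp [Xf]

/-- The set of `H` all of whose scalar multiples are realized. -/
def Good (H : R) : Prop := ∀ c : ℂ, ∃ Φ, Jet (C c * H) Φ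

lemma good_add {A B : R} (hA : Good A) (hB : Good B) : Good (A + B) := by
  intro c
  obtain ⟨Φ₁, h1⟩ := hA (c / 2)
  obtain ⟨Φ₂, h2⟩ := hB c
  have := jet_strang h1 h2
  have e : C (c / 2) * A + C c * B + C (c / 2) * A = C c * (A + B) := by
    have : (C c : R) = C (c / 2) + C (c / 2) := by
      rw [← C_add]; congr 1; ring
    rw [this]; ring
  rw [e] at this
  exact ⟨_, this⟩

lemma good_smul {A : R} (a : ℂ) (hA : Good A) : Good (C a * A) := by
  intro c
  obtain ⟨Φ, h⟩ := hA (c * a)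
  refine ⟨Φ, ?_⟩
  have : C c * (C a * A) = C (c * a) * A := by rw [C_mul]; ring
  rwa [this]

lemma good_zero : Good (0 : R) := by
  intro c
  refine ⟨AlgEquiv.refl, ?_⟩
  apply jet_of_gens
  · simp
  · refine ⟨0, ?_⟩
    simp [Xf]
  · refine ⟨0, ?_⟩
    simp [Xf]

lemma good_incr (β : ℂ) (k d : ℕ) : Good ((X 0) ^ k * (ellp β) ^ d) := by
  intro c
  cases d with
  | zero =>
    simpa using jet_xpow c k
  | succ d =>
    obtain ⟨Φ, h⟩ := jet_shear β c k d
    refine ⟨Φ, ?_⟩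
    have : C c * ((X 0) ^ k * (ellp β) ^ (d + 1)) = incr β c k (d + 1) := by
      simp only [incr]; ring
    rwa [this]

/-- Every monomial in `T, t` of degree `d` is a combination of `d`-th powers of linear forms. -/
lemma monomial_mem_span (d j : ℕ) (hj : j ≤ d) :
    ((X 1 : R) ^ (d - j) * (X 2) ^ j) ∈
      Submodule.span ℂ (Set.range fun β : ℂ => (ellp β) ^ d) := by
  classical
  set v : Fin (d + 1) → ℂ := fun i => ((i : ℕ) : ℂ) with hv
  have hinj : Function.Injective v := by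
    intro a b h
    have : ((a : ℕ) : ℂ) = ((b : ℕ) : ℂ) := h
    exact Fin.ext (by exact_mod_cast this)
  set V := Matrix.vandermonde v with hV
  have hdet : V.det ≠ 0 := Matrix.det_vandermonde_ne_zero_iff.2 hinj
  have hU : IsUnit V.det := isUnit_iff_ne_zero.2 hdet
  let jj : Fin (d + 1) := ⟨j, Nat.lt_succ_of_le hj⟩
  let ej : Fin (d + 1) → ℂ := fun i => if i = jj then 1 else 0
  let cc : Fin (d + 1) → ℂ := Matrix.vecMul ej V⁻¹
  have hcc : Matrix.vecMul cc V = ej := by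
    simp only [cc, Matrix.vecMul_vecMul]
    rw [Matrix.nonsing_inv_mul _ hU, Matrix.vecMul_one]
  have hsum : ∀ m : Fin (d + 1), ∑ i, cc i * (v i) ^ (m : ℕ) = ej m := by
    intro m
    have := congrFun hcc m
    simpa [Matrix.vecMul, dotProduct, hV, Matrix.vandermonde_apply] using this
  have hexp : ∀ β : ℂ, (ellp β) ^ d = ∑ m : Fin (d + 1),
      C ((β ^ (m : ℕ)) * (d.choose m : ℂ)) * ((X 1) ^ (d - m) * (X 2) ^ (m : ℕ)) := by
    intro β
    have h1 : (ellp β) ^ d = (C β * X 2 + X 1) ^ d := by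
      simp only [ellp]; ring
    rw [h1, add_pow, Finset.sum_range, ]
    refine Finset.sum_congr rfl ?_
    intro m _
    simp only [mul_pow, ← C_pow, C_mul, map_natCast]
    ring
  have key : ∑ i, C (cc i) * (ellp (v i)) ^ d =
      C ((d.choose j : ℂ)) * ((X 1) ^ (d - j) * (X 2) ^ j) := by
    simp only [hexp, Finset.mul_sum]
    rw [Finset.sum_comm]
    rw [Finset.sum_eq_single jj]
    · have h2 := hsum jj
      simp only [ej, if_true] at h2
      have : ∑ i, C (cc i) * (C (v i ^ (jj : ℕ) * (d.choose (jj : ℕ) : ℂ)) *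
          ((X 1 : R) ^ (d - (jj : ℕ)) * (X 2) ^ (jj : ℕ))) =
          C ((∑ i, cc i * (v i) ^ (jj : ℕ)) * (d.choose (jj : ℕ) : ℂ)) *
            ((X 1) ^ (d - (jj : ℕ)) * (X 2) ^ (jj : ℕ)) := by
        rw [Finset.sum_mul, map_sum, Finset.sum_mul]
        refine Finset.sum_congr rfl ?_
        intro i _
        simp only [C_mul]
        ring
      rw [this, h2]
      simp [jj]
    · intro m _ hm
      have h2 := hsum m
      simp only [ej, if_neg hm] at h2
      have : ∑ i, C (cc i) * (C (v i ^ (m : ℕ) * (d.choose (m : ℕ) : ℂ)) *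
          ((X 1 : R) ^ (d - (m : ℕ)) * (X 2) ^ (m : ℕ))) =
          C ((∑ i, cc i * (v i) ^ (m : ℕ)) * (d.choose (m : ℕ) : ℂ)) *
            ((X 1) ^ (d - (m : ℕ)) * (X 2) ^ (m : ℕ)) := by
        rw [Finset.sum_mul, map_sum, Finset.sum_mul]
        refine Finset.sum_congr rfl ?_
        intro i _
        simp only [C_mul]
        ring
      rw [this, h2]
      simp
    · intro h; exact absurd (Finset.mem_univ _) h
  have hchoose : ((d.choose j : ℂ)) ≠ 0 := by
    exact_mod_cast (Nat.choose_pos hj).ne'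
  have hfinal : ((X 1 : R) ^ (d - j) * (X 2) ^ j) =
      ∑ i, (((d.choose j : ℂ))⁻¹ * cc i) • (ellp (v i)) ^ d := by
    have : ((X 1 : R) ^ (d - j) * (X 2) ^ j) =
        C ((d.choose j : ℂ)⁻¹) * (C ((d.choose j : ℂ)) * ((X 1) ^ (d - j) * (X 2) ^ j)) := by
      rw [← mul_assoc, ← C_mul, inv_mul_cancel₀ hchoose]; simp
    rw [this, ← key, Finset.mul_sum]
    refine Finset.sum_congr rfl ?_
    intro i _
    rw [smul_eq_C_mul, C_mul]
    ring
  rw [hfinal]
  refine Submodule.sum_mem _ ?_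
  intro i _
  exact Submodule.smul_mem _ _ (Submodule.subset_span ⟨v i, rfl⟩)

lemma good_monomial (k i j : ℕ) : Good ((X 0) ^ k * ((X 1) ^ i * (X 2) ^ j)) := by
  have hmem := monomial_mem_span (i + j) j (Nat.le_add_left _ _)
  simp only [Nat.add_sub_cancel] at hmem
  have : ∀ p ∈ Submodule.span ℂ (Set.range fun β : ℂ => (ellp β) ^ (i + j)),
      Good ((X 0 : R) ^ k * p) := by
    intro p hp
    induction hp using Submodule.span_induction with
    | mem x hx =>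
      obtain ⟨β, rfl⟩ := hx
      exact good_incr β k (i + j)
    | zero => simpa using good_zero
    | add x y _ _ hx hy =>
      rw [mul_add]
      exact good_add hx hy
    | smul a x _ hx =>
      rw [smul_eq_C_mul, mul_left_comm]
      exact good_smul a hx
  exact this _ hmem

/-- Every Hamiltonian is realized. -/
theorem good_all (H : R) : Good H := by
  induction H using MvPolynomial.induction_on' with
  | monomial u a =>
    have e : monomial u a = C a * ((X 0) ^ (u 0) * ((X 1) ^ (u 1) * (X 2) ^ (u 2))) := by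
      rw [MvPolynomial.monomial_eq, Finsupp.prod_fintype _ _ (by simp), Fin.prod_univ_three]
      ring
    rw [e]
    exact good_smul a (good_monomial _ _ _)
  | add p q hp hq => exact good_add hp hq

theorem exists_jet (H : R) : ∃ Φ, Jet H Φ := by
  obtain ⟨Φ, h⟩ := good_all H 1
  exact ⟨Φ, by simpa using h⟩

end

end Vale.Agent.Lib.P295
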