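import Mathlib

/-!
# Vénéreau frame: lifting triples to endomorphisms of the polynomial ring in four variables

`S = ℂ[x,y,z,u]`, `q = z² + y u`, `T = x z + y q`, `t = x² u - q (T + x z)`.
Then `x² q = T² + y t`.  A triple `(f, a, b)` with the suitable congruences modulo `x`
defines an endomorphism fixing `x`, sending `y` to `f`, `T` to `a` and `t` to `b`.
-/

namespace Vale.Agent.Lib.P295
open MvPolynomial

noncomputable section

/-- The polynomial ring `ℂ[x,y,z,u]`, with variables numbered 0,1,2,3. -/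
abbrev S := MvPolynomial (Fin 4) ℂ

/-- The element `q = z² + y u`. -/
def qS : S := (X 2 : S) ^ 2 + X 1 * X 3

/-- The element `T = x z + y (z² + y u)`. -/
def TS : S := (X 0 : S) * X 2 + X 1 * qS

/-- The element `t = x² u - q (T + x z)`. -/
def tS : S := (X 0 : S) ^ 2 * X 3 - qS * (TS + X 0 * X 2)

lemma relS : (X 0 : S) ^ 2 * qS = TS ^ 2 + X 1 * tS := by
  unfold tS TS qS; ring

lemma x_prime : Prime (X 0 : S) := MvPolynomial.X_prime

lemma x_ne : (X 0 : S) ≠ 0 := MvPolynomial.X_ne_zero 0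

lemma not_x_dvd_y : ¬ (X 0 : S) ∣ X 1 := by
  rintro ⟨w, hw⟩
  have := congrArg (MvPolynomial.eval (fun i : Fin 4 => if i = 0 then (0 : ℂ) else 1)) hw
  simp at this

/-- Lifting lemma. -/
lemma lift_exists (f a b Q : S) (hQ : (X 0 : S) ^ 2 * Q = a ^ 2 + f * b)
    (ha : (X 0 : S) ∣ a - f * Q) (hf : (X 0 : S) ∣ f - X 1) :
    ∃ φ : S →ₐ[ℂ] S, φ (X 0) = X 0 ∧ φ (X 1) = f ∧ φ TS = a ∧ φ tS = b := by
  obtain ⟨Z, hZ⟩ := ha
  have hfx : ¬ (X 0 : S) ∣ f := by
    intro h
    exact not_x_dvd_y ((dvd_sub_right h).1 (by simpa using hf))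
  have hdvd : (X 0 : S) ^ 2 ∣ f * (b + 2 * X 0 * Z * Q + f * Q ^ 2) := by
    refine ⟨Q - Z ^ 2, ?_⟩
    have ha' : a = X 0 * Z + f * Q := by linear_combination hZ
    subst ha'
    linear_combination -hQ
  obtain ⟨B, hB⟩ := x_prime.pow_dvd_of_dvd_mul_left 2 hfx hdvd
  have hQ' : Q = Z ^ 2 + f * B := by
    have ha' : a = X 0 * Z + f * Q := by linear_combination hZ
    have : (X 0 : S) ^ 2 * (Q - (Z ^ 2 + f * B)) = 0 := by
      subst ha'
      linear_combination hQ + f * hB
    have h2 := (mul_eq_zero.1 this).resolve_left (pow_ne_zero 2 x_ne)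
    linear_combination h2
  refine ⟨aeval ![X 0, f, Z, B], ?_, ?_, ?_, ?_⟩
  · simp
  · simp
  · have hq : aeval ![(X 0 : S), f, Z, B] qS = Q := by
      simp [qS, hQ']
    simp only [TS, map_add, map_mul, hq]
    simp
    linear_combination -hZ
  · have hq : aeval ![(X 0 : S), f, Z, B] qS = Q := by
      simp [qS, hQ']
    have hT : aeval ![(X 0 : S), f, Z, B] TS = a := by
      simp only [TS, map_add, map_mul, hq]
      simp
      linear_combination -hZ
    simp only [tS, map_sub, map_mul, map_pow, map_add, hq, hT]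
    simp
    have ha' : a = X 0 * Z + f * Q := by linear_combination hZ
    subst ha'
    linear_combination -hB

/-- Rigidity: an endomorphism fixing `x`, `y`, `T`, `t` is the identity. -/
lemma rigid (ρ : S →ₐ[ℂ] S) (h0 : ρ (X 0) = X 0) (h1 : ρ (X 1) = X 1)
    (hT : ρ TS = TS) (ht : ρ tS = tS) : ρ = AlgHom.id ℂ S := by
  have hq : ρ qS = qS := by
    have h := congrArg ρ relS
    simp only [map_mul, map_pow, map_add, h0, h1, hT, ht] at h
    rw [← relS] at h
    exact mul_left_cancel₀ (pow_ne_zero 2 x_ne) h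
  have hz : ρ (X 2) = X 2 := by
    have h : ρ ((X 0 : S) * X 2 + X 1 * qS) = TS := hT
    simp only [map_mul, map_add, h0, h1, hq] at h
    have h3 : (X 0 : S) * (ρ (X 2) - X 2) = 0 := by
      unfold TS at h
      linear_combination h
    have h4 := (mul_eq_zero.1 h3).resolve_left x_ne
    linear_combination h4
  have hu : ρ (X 3) = X 3 := by
    have h : ρ ((X 2 : S) ^ 2 + X 1 * X 3) = qS := hq
    simp only [map_mul, map_add, map_pow, h1, hz] at h
    have h3 : (X 1 : S) * (ρ (X 3) - X 3) = 0 := by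
      unfold qS at h
      linear_combination h
    have h4 := (mul_eq_zero.1 h3).resolve_left (X_ne_zero 1)
    linear_combination h4
  apply MvPolynomial.algHom_ext
  intro i
  fin_cases i
  · simpa using h0
  · simpa using h1
  · simpa using hz
  · simpa using hu

end

end Vale.Agent.Lib.P295
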